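import Vale.Agent.P359.Final
import Vale.Agent.P359.Bridge

namespace Vale.Agent.Results.P359.Gap
open Vale.Agent.P359

/-- Orthogonal projection of `ψ` onto the line spanned by `v`. -/
noncomputable def lineProj {N Q : ℕ} (v ψ : State N Q) : State N Q := (ℂ ∙ v).starProjection ψ

/-- `Re ⟨ψ, φ⟩`. -/
noncomputable def reInner {N Q : ℕ} (ψ φ : State N Q) : ℝ := (inner ℂ ψ φ).re

theorem result :
    (∀ N : ℕ, 2 ≤ N → laughlin N ≠ 0 ∧ IsFermionic (laughlin N) ∧ ham (laughlin N) = 0) ∧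
    ∃ δ : ℝ, 0 < δ ∧ ∃ N₀ : ℕ, ∀ N : ℕ, N₀ ≤ N →
      ∀ ψ : State N (3 * (N - 1)), IsFermionic ψ →
        δ * reInner ψ (ψ - lineProj (laughlin N) ψ) ≤ reInner ψ (ham ψ) := by
  refine ⟨fun N hN => ⟨laughlin_ne_zero N, laughlin_fermionic N, ham_laughlin N hN⟩, ?_⟩
  obtain ⟨Q0, h⟩ := fock_gap
  exact ⟨1 / 100, by norm_num, Q0 + 2, fun N hN ψ hψ =>
    bridge _ N (by omega) (h _ (by omega)) ψ hψ⟩

end Vale.Agent.Results.P359.Gap
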